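import Vale.Agent.P273.H214.WCut2

/-!
# P273, row BULK-F4: local branches of `y`, closed forms on the curve family, constancy along paths
-/

namespace Vale.Agent.P273.H214

open scoped ContDiff Topology
open Set Filter MeasureTheory Finset

noncomputable section

/-- the sextic -/
def ff (p : Bs × ℂ) : ℂ := ∏ i, (p.2 - p.1 i)

theorem ff_ne_zero_iff {p : Bs × ℂ} : ff p ≠ 0 ↔ ∀ i, p.2 ≠ p.1 i := by
  unfold ff
  rw [Finset.prod_ne_zero_iff]
  simp [sub_ne_zero]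

theorem contDiff_ff : ContDiff ℂ ∞ ff := by
  unfold ff
  exact contDiff_prod fun i _ => by fun_prop

theorem continuous_ff : Continuous ff := contDiff_ff.continuous

/-- the local branch of `y` through `(p0, y0)` -/
def Ybr (p0 : Bs × ℂ) (y0 : ℂ) (p : Bs × ℂ) : ℂ := y0 * psq (ff p / ff p0)

@[simp] theorem Ybr_self {p0 : Bs × ℂ} (h : ff p0 ≠ 0) (y0 : ℂ) : Ybr p0 y0 p0 = y0 := by
  rw [Ybr, div_self h, psq_one, mul_one]

theorem Ybr_neg (p0 : Bs × ℂ) (y0 : ℂ) (p : Bs × ℂ) : Ybr p0 (-y0) p = -Ybr p0 y0 p := by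
  unfold Ybr; ring

theorem contDiffAt_Ybr' {p0 p : Bs × ℂ} (h : ff p / ff p0 ∈ Complex.slitPlane) (y0 : ℂ) :
    ContDiffAt ℂ ∞ (Ybr p0 y0) p := by
  unfold Ybr
  refine contDiffAt_const.mul ?_
  exact ContDiffAt.comp (g := psq) p (contDiffAt_psq h) (contDiff_ff.contDiffAt.div_const _)

theorem contDiffAt_Ybr {p0 : Bs × ℂ} (h : ff p0 ≠ 0) (y0 : ℂ) :
    ContDiffAt ℂ ∞ (Ybr p0 y0) p0 := by
  refine contDiffAt_Ybr' ?_ y0
  rw [div_self h]
  exact Complex.one_mem_slitPlane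

theorem Ybr_sq {p0 : Bs × ℂ} (h : ff p0 ≠ 0) {y0 : ℂ} (hy : y0 ^ 2 = ff p0) :
    ∀ᶠ p in 𝓝 p0, Ybr p0 y0 p ^ 2 = ff p := by
  filter_upwards [continuous_ff.continuousAt.eventually_ne h] with p hp
  rw [Ybr, mul_pow, psq_sq (div_ne_zero hp h), hy]
  field_simp

/-- continuous square roots are locally unique -/
theorem eventuallyEq_of_sq {T : Type*} [TopologicalSpace T] {u v : T → ℂ} {t0 : T}
    (hu : ContinuousAt u t0) (hv : ContinuousAt v t0) (h0 : u t0 = v t0) (hne : u t0 ≠ 0)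
    (hsq : ∀ᶠ t in 𝓝 t0, u t ^ 2 = v t ^ 2) : ∀ᶠ t in 𝓝 t0, u t = v t := by
  have h1 : ContinuousAt (fun t => u t + v t) t0 := hu.add hv
  have h2 : u t0 + v t0 ≠ 0 := by
    rw [← h0, ← two_mul]; exact mul_ne_zero two_ne_zero hne
  filter_upwards [hsq, h1.eventually_ne h2] with t h3 h4
  have h5 : (u t - v t) * (u t + v t) = 0 := by linear_combination h3
  rcases mul_eq_zero.1 h5 with h6 | h6
  · exact sub_eq_zero.1 h6
  · exact absurd h6 h4

/-- a local branch of `y` -/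
structure IsBr (Y : Bs × ℂ → ℂ) (p0 : Bs × ℂ) : Prop where
  ne : ff p0 ≠ 0
  cont : ContinuousAt Y p0
  sq : ∀ᶠ p in 𝓝 p0, Y p ^ 2 = ff p

theorem IsBr.ne_zero {Y : Bs × ℂ → ℂ} {p0 : Bs × ℂ} (h : IsBr Y p0) : Y p0 ≠ 0 := by
  intro h0
  have := h.sq.self_of_nhds
  rw [h0] at this
  exact h.ne (by rw [← this]; simp)

theorem isBr_Ybr {p0 : Bs × ℂ} (h : ff p0 ≠ 0) {y0 : ℂ} (hy : y0 ^ 2 = ff p0) :
    IsBr (Ybr p0 y0) p0 :=
  ⟨h, (contDiffAt_Ybr h y0).continuousAt, Ybr_sq h hy⟩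

/-- a local branch agrees with the canonical one through each of its values -/
theorem IsBr.eq_Ybr {Y : Bs × ℂ → ℂ} {p0 : Bs × ℂ} (h : IsBr Y p0) :
    ∀ᶠ p in 𝓝 p0, Y p = Ybr p0 (Y p0) p := by
  have h1 := h.sq.self_of_nhds
  refine eventuallyEq_of_sq h.cont (isBr_Ybr h.ne h1).cont
    (Ybr_self h.ne _).symm h.ne_zero ?_
  filter_upwards [h.sq, (isBr_Ybr h.ne h1).sq] with p h2 h3
  rw [h2, h3]

theorem IsBr.smoothC {Y : Bs × ℂ → ℂ} {p0 : Bs × ℂ} (h : IsBr Y p0) : ContDiffAt ℂ ∞ Y p0 :=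
  (contDiffAt_Ybr h.ne (Y p0)).congr_of_eventuallyEq h.eq_Ybr

theorem IsBr.smooth {Y : Bs × ℂ → ℂ} {p0 : Bs × ℂ} (h : IsBr Y p0) : ContDiffAt ℝ ∞ Y p0 :=
  h.smoothC.restrict_scalars ℝ

theorem IsBr.eventually {Y : Bs × ℂ → ℂ} {p0 : Bs × ℂ} (h : IsBr Y p0) :
    ∀ᶠ p in 𝓝 p0, IsBr Y p := by
  have h4 : ContinuousAt (fun p => ff p / ff p0) p0 := continuous_ff.continuousAt.div_const _
  have h5 : ∀ᶠ p in 𝓝 p0, ff p / ff p0 ∈ Complex.slitPlane := by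
    refine h4.eventually_mem (Complex.isOpen_slitPlane.mem_nhds ?_)
    rw [div_self h.ne]
    exact Complex.one_mem_slitPlane
  filter_upwards [continuous_ff.continuousAt.eventually_ne h.ne,
    h.sq.eventually_nhds, h.eq_Ybr.eventually_nhds, h5] with p h1 h3 h6 h7
  exact ⟨h1, ((contDiffAt_Ybr' h7 _).continuousAt).congr
    (by filter_upwards [h6] with q hq using hq.symm), h3⟩

theorem IsBr.neg {Y : Bs × ℂ → ℂ} {p0 : Bs × ℂ} (h : IsBr Y p0) : IsBr (fun p => -Y p) p0 :=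
  ⟨h.ne, h.cont.neg, by filter_upwards [h.sq] with p hp using by rw [neg_sq, hp]⟩

variable {H : Type*} [NormedAddCommGroup H] [NormedSpace ℝ H]

/-- A closed odd `1`-form on the family of curves whose restriction to the curves is
`A (dx / y, x dx / y)`. -/
structure FlatForm (η : Bs → ℂ → ℂ → (Bs × ℂ →L[ℝ] H)) (A : Bs → (ℂ × ℂ →L[ℝ] H)) : Prop where
  odd : ∀ b x y, η b x (-y) = -η b x y
  smooth : ∀ p ∈ Cf ×ˢ (univ : Set ℂ), ∀ Y, IsBr Y p →
    ContDiffAt ℝ ∞ (fun q : Bs × ℂ => η q.1 q.2 (Y q)) p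
  closed : ∀ p ∈ Cf ×ˢ (univ : Set ℂ), ∀ Y, IsBr Y p → ∀ v w,
    fderiv ℝ (fun q : Bs × ℂ => η q.1 q.2 (Y q)) p v w =
      fderiv ℝ (fun q : Bs × ℂ => η q.1 q.2 (Y q)) p w v
  vert : ∀ b ∈ Cf, ∀ x y, y ^ 2 = ff (b, x) → y ≠ 0 → ∀ ζ : ℂ,
    η b x y (0, ζ) = A b (ζ / y, x * ζ / y)
  smoothA : ∀ b ∈ Cf, ContDiffAt ℝ ∞ A b

/-- a closed form without vertical part is constant to first order in the vertical direction -/
theorem fderiv_vert_eq_zero {B : Bs × ℂ → (Bs × ℂ →L[ℝ] H)} {p : Bs × ℂ}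
    (hd : DifferentiableAt ℝ B p)
    (hc : ∀ v w, fderiv ℝ B p v w = fderiv ℝ B p w v)
    (hv : ∀ᶠ q in 𝓝 p, ∀ ζ : ℂ, B q (0, ζ) = 0) (ζ : ℂ) :
    fderiv ℝ B p (0, ζ) = 0 := by
  refine ContinuousLinearMap.ext fun w => ?_
  rw [hc]
  have h1 : HasFDerivAt (fun q => B q ((0, ζ) : Bs × ℂ))
      ((fderiv ℝ B p).flip ((0, ζ) : Bs × ℂ)) p := by
    have := hd.hasFDerivAt.clm_apply (hasFDerivAt_const ((0, ζ) : Bs × ℂ) p)
    simpa using this
  have h2 : HasFDerivAt (fun q => B q ((0, ζ) : Bs × ℂ)) (0 : Bs × ℂ →L[ℝ] H) p :=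
    (hasFDerivAt_const (0 : H) p).congr_of_eventuallyEq
      (by filter_upwards [hv] with q hq using hq ζ)
  have h3 := h1.unique h2
  have h4 := congrArg (fun L : Bs × ℂ →L[ℝ] H => L w) h3
  simpa using h4

/-- the values of a form on the family along a path of one curve which is locally a branch are
constant if the form is closed and has no vertical part -/
theorem const_along_path {β : Bs → ℂ → ℂ → (Bs × ℂ →L[ℝ] H)} {b : Bs} {γ y : ℝ → ℂ}
    (hγ : ∀ t, DifferentiableAt ℝ γ t) (hy : Continuous y)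
    (hsq : ∀ t, y t ^ 2 = ff (b, γ t)) (hne : ∀ t, ff (b, γ t) ≠ 0)
    (hd : ∀ t, ∀ Y, IsBr Y (b, γ t) →
      DifferentiableAt ℝ (fun q : Bs × ℂ => β q.1 q.2 (Y q)) (b, γ t))
    (hc : ∀ t, ∀ Y, IsBr Y (b, γ t) → ∀ v w,
      fderiv ℝ (fun q : Bs × ℂ => β q.1 q.2 (Y q)) (b, γ t) v w =
        fderiv ℝ (fun q : Bs × ℂ => β q.1 q.2 (Y q)) (b, γ t) w v)
    (hv : ∀ t, ∀ Y, IsBr Y (b, γ t) →
      ∀ᶠ q in 𝓝 ((b, γ t) : Bs × ℂ), ∀ ζ : ℂ, β q.1 q.2 (Y q) (0, ζ) = 0) (s t : ℝ) :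
    β b (γ s) (y s) = β b (γ t) (y t) := by
  have key : ∀ t, HasDerivAt (fun t => β b (γ t) (y t)) 0 t := by
    intro t
    set Y := Ybr (b, γ t) (y t) with hYdef
    have hY : IsBr Y (b, γ t) := isBr_Ybr (hne t) (hsq t)
    have h1 := fderiv_vert_eq_zero (hd t Y hY) (hc t Y hY) (hv t Y hY)
    have h2 : HasFDerivAt (fun q : Bs × ℂ => β q.1 q.2 (Y q))
        (fderiv ℝ (fun q : Bs × ℂ => β q.1 q.2 (Y q)) (b, γ t)) (b, γ t) := (hd t Y hY).hasFDerivAt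
    have h3 : HasDerivAt (fun t => ((b, γ t) : Bs × ℂ)) (0, deriv γ t) t :=
      (hasDerivAt_const t b).prodMk (hγ t).hasDerivAt
    have h4 := h2.comp_hasDerivAt t h3
    rw [h1] at h4
    refine h4.congr_of_eventuallyEq ?_
    have h5 : ContinuousAt (fun t => Y (b, γ t)) t := by
      have h6 : ContinuousAt Y (b, γ t) := hY.cont
      exact ContinuousAt.comp (f := fun t => ((b, γ t) : Bs × ℂ)) h6 h3.continuousAt
    have h7 : ∀ᶠ r in 𝓝 t, y r = Y (b, γ r) := by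
      refine eventuallyEq_of_sq hy.continuousAt h5 ?_ ?_ ?_
      · rw [hYdef, Ybr_self (hne t)]
      · intro h0
        have := hsq t
        rw [h0] at this
        exact hne t (by rw [← this]; simp)
      · have h8 := h3.continuousAt.eventually hY.sq
        filter_upwards [h8] with r hr
        rw [hr, hsq r]
    filter_upwards [h7] with r hr
    simp only [Function.comp]
    rw [hr]
  have h9 : Differentiable ℝ (fun t => β b (γ t) (y t)) := fun t => (key t).differentiableAt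
  exact is_const_of_deriv_eq_zero h9 (fun t => (key t).deriv) s t

end

end Vale.Agent.P273.H214
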