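import Mathlib
import Vale.Agent.P267.H734.ParInt

/-!
# P273, row BULK-F4: odd primitives near the Weierstrass points

`b : Fin 6 → ℂ` are the roots, `y ^ 2 = ∏ (x - b i)`.  `EWc k b j x y` is the integral of
`z ^ k dz / y` from `b j` to `(x, y)` for `x` near `b j`; it is odd in `y` by construction.
-/

namespace Vale.Agent.P273.H214

open scoped ContDiff Topology
open Set Filter MeasureTheory Finset

noncomputable section

/-- the roots -/
abbrev Bs : Type := Fin 6 → ℂ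

/-- the principal square root -/
def psq (z : ℂ) : ℂ := Complex.exp (Complex.log z / 2)

theorem psq_ne_zero (z : ℂ) : psq z ≠ 0 := Complex.exp_ne_zero _

theorem psq_sq {z : ℂ} (hz : z ≠ 0) : psq z ^ 2 = z := by
  rw [psq, ← Complex.exp_nat_mul]
  have : ((2 : ℕ) : ℂ) * (Complex.log z / 2) = Complex.log z := by push_cast; ring
  rw [this, Complex.exp_log hz]

@[simp] theorem psq_one : psq 1 = 1 := by simp [psq]

theorem norm_psq_sq {z : ℂ} (hz : z ≠ 0) : ‖psq z‖ ^ 2 = ‖z‖ := by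
  rw [← norm_pow, psq_sq hz]

theorem contDiffAt_psq {z : ℂ} (hz : z ∈ Complex.slitPlane) : ContDiffAt ℂ ∞ psq z := by
  unfold psq
  exact ((Complex.contDiffAt_log hz).div_const _).cexp

theorem differentiableAt_psq {z : ℂ} (hz : z ∈ Complex.slitPlane) :
    DifferentiableAt ℂ psq z := (contDiffAt_psq hz).differentiableAt (by simp)

/-- `1 + q` with `|q| < 1` lies in the slit plane -/
theorem one_add_mem {q : ℂ} (hq : ‖q‖ < 1) : 1 + q ∈ Complex.slitPlane := by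
  left
  have h := (abs_lt.1 ((Complex.abs_re_le_norm q).trans_lt hq)).1
  simp only [Complex.add_re, Complex.one_re]
  linarith

/-- the domain near `b j` -/
def Dj (j : Fin 6) : Set (Bs × ℂ) :=
  {p | ∀ i, i ≠ j → 2 * ‖p.2 - p.1 j‖ < ‖p.1 i - p.1 j‖}

theorem isOpen_Dj (j : Fin 6) : IsOpen (Dj j) := by
  have : Dj j = ⋂ i : {i : Fin 6 // i ≠ j}, {p : Bs × ℂ | 2 * ‖p.2 - p.1 j‖ < ‖p.1 i - p.1 j‖} := by
    ext p; simp [Dj]
  rw [this]
  refine isOpen_iInter_of_finite fun i => isOpen_lt (by fun_prop) (by fun_prop)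

/-- the normalised square root of the product of the other factors -/
def Pj (j : Fin 6) (p : Bs × ℂ) : ℂ :=
  ∏ i ∈ univ.erase j, psq ((p.2 - p.1 i) / (p.1 j - p.1 i))

theorem Pj_ne_zero (j : Fin 6) (p : Bs × ℂ) : Pj j p ≠ 0 :=
  Finset.prod_ne_zero_iff.2 fun _ _ => psq_ne_zero _

theorem ne_of_Dj {j : Fin 6} {p : Bs × ℂ} (hp : p ∈ Dj j) {i : Fin 6} (hi : i ≠ j) :
    p.1 j - p.1 i ≠ 0 := by
  intro h
  have h1 := hp i hi
  have h2 : p.1 i - p.1 j = 0 := by rw [← neg_sub, h, neg_zero]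
  rw [h2, norm_zero] at h1
  linarith [norm_nonneg (p.2 - p.1 j)]

theorem quot_eq {j : Fin 6} {p : Bs × ℂ} (hp : p ∈ Dj j) {i : Fin 6} (hi : i ≠ j) :
    (p.2 - p.1 i) / (p.1 j - p.1 i) = 1 + (p.2 - p.1 j) / (p.1 j - p.1 i) := by
  have := ne_of_Dj hp hi
  field_simp
  ring

theorem norm_quot {j : Fin 6} {p : Bs × ℂ} (hp : p ∈ Dj j) {i : Fin 6} (hi : i ≠ j) :
    ‖(p.2 - p.1 j) / (p.1 j - p.1 i)‖ < 1 / 2 := by
  have h0 := ne_of_Dj hp hi
  have h1 := hp i hi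
  rw [norm_div, div_lt_iff₀ (norm_pos_iff.2 h0), norm_sub_rev (p.1 j)]
  linarith

theorem quot_mem {j : Fin 6} {p : Bs × ℂ} (hp : p ∈ Dj j) {i : Fin 6} (hi : i ≠ j) :
    (p.2 - p.1 i) / (p.1 j - p.1 i) ∈ Complex.slitPlane := by
  rw [quot_eq hp hi]
  exact one_add_mem ((norm_quot hp hi).trans (by norm_num))

theorem contDiffAt_Pj {j : Fin 6} {p : Bs × ℂ} (hp : p ∈ Dj j) : ContDiffAt ℂ ∞ (Pj j) p := by
  unfold Pj
  refine contDiffAt_prod fun i hi => ?_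
  have hi' : i ≠ j := (Finset.mem_erase.1 hi).1
  have h1 : ContDiffAt ℂ ∞ (fun p : Bs × ℂ => (p.2 - p.1 i) / (p.1 j - p.1 i)) p := by
    refine ContDiffAt.div ?_ ?_ (ne_of_Dj hp hi')
    · fun_prop
    · fun_prop
  exact ContDiffAt.comp (g := psq) p (contDiffAt_psq (quot_mem hp hi')) h1

/-- the point of the segment -/
def seg (j : Fin 6) (p : Bs × ℂ) (r : ℝ) : ℂ := p.1 j + (r : ℂ) ^ 2 * (p.2 - p.1 j)

theorem seg_mem {j : Fin 6} {p : Bs × ℂ} (hp : p ∈ Dj j) {r : ℝ} (hr : r ∈ Icc (0 : ℝ) 1) :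
    (p.1, seg j p r) ∈ Dj j := by
  intro i hi
  have h1 := hp i hi
  refine lt_of_le_of_lt ?_ h1
  simp only [seg, add_sub_cancel_left, norm_mul, norm_pow, Complex.norm_real, Real.norm_eq_abs]
  have : |r| ^ 2 ≤ 1 := by
    rw [abs_of_nonneg hr.1]
    exact pow_le_one₀ hr.1 hr.2
  nlinarith [norm_nonneg (p.2 - p.1 j)]

/-- the domain of the integrand -/
def Wj (j : Fin 6) : Set ((Bs × ℂ) × ℝ) := {q | (q.1.1, seg j q.1 q.2) ∈ Dj j}

theorem isOpen_Wj (j : Fin 6) : IsOpen (Wj j) := by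
  have : Continuous fun q : (Bs × ℂ) × ℝ => ((q.1.1, seg j q.1 q.2) : Bs × ℂ) := by
    unfold seg; fun_prop
  exact (isOpen_Dj j).preimage this

/-- the integrand -/
def intg (k : ℕ) (j : Fin 6) (q : (Bs × ℂ) × ℝ) : ℂ :=
  seg j q.1 q.2 ^ k / Pj j (q.1.1, seg j q.1 q.2)

theorem contDiff_ofReal' : ContDiff ℝ ∞ (fun r : ℝ => (r : ℂ)) := Complex.ofRealCLM.contDiff

theorem contDiff_seg (j : Fin 6) : ContDiff ℝ ∞ (fun q : (Bs × ℂ) × ℝ => seg j q.1 q.2) := by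
  unfold seg
  have h1 : ContDiff ℝ ∞ (fun q : (Bs × ℂ) × ℝ => (q.2 : ℂ)) :=
    contDiff_ofReal'.comp contDiff_snd
  have h2 : ContDiff ℝ ∞ (fun q : (Bs × ℂ) × ℝ => q.1.1 j) := by fun_prop
  have h3 : ContDiff ℝ ∞ (fun q : (Bs × ℂ) × ℝ => q.1.2) := by fun_prop
  exact h2.add ((h1.pow 2).mul (h3.sub h2))

theorem contDiffOn_intg (k : ℕ) (j : Fin 6) : ContDiffOn ℝ ∞ (intg k j) (Wj j) := by
  intro q hq
  refine ContDiffAt.contDiffWithinAt ?_
  unfold intg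
  have h1 : ContDiffAt ℝ ∞ (fun q : (Bs × ℂ) × ℝ => seg j q.1 q.2) q := (contDiff_seg j).contDiffAt
  have h2 : ContDiffAt ℝ ∞ (fun q : (Bs × ℂ) × ℝ => ((q.1.1, seg j q.1 q.2) : Bs × ℂ)) q := by
    refine ContDiffAt.prodMk ?_ h1
    fun_prop
  have h3 : ContDiffAt ℝ ∞ (fun q : (Bs × ℂ) × ℝ => Pj j (q.1.1, seg j q.1 q.2)) q :=
    ContDiffAt.comp (g := Pj j) q ((contDiffAt_Pj hq).restrict_scalars ℝ) h2
  simp only [div_eq_mul_inv]
  exact (h1.pow k).mul (h3.inv (Pj_ne_zero _ _))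

/-- the holomorphic factor -/
def Qj (k : ℕ) (j : Fin 6) (p : Bs × ℂ) : ℂ :=
  2 * Pj j p * ∫ r in (0 : ℝ)..1, intg k j (p, r)

theorem contDiffOn_Qj (k : ℕ) (j : Fin 6) : ContDiffOn ℝ ∞ (Qj k j) (Dj j) := by
  have h1 : ContDiffOn ℝ ∞ (fun p => ∫ r in (0 : ℝ)..1, intg k j (p, r)) (Dj j) :=
    Vale.Agent.P267.H734.contDiffOn_integral (isOpen_Wj j) (isOpen_Dj j)
      (fun p hp t ht => seg_mem hp ht) (contDiffOn_intg k j)
  have h2 : ContDiffOn ℝ ∞ (Pj j) (Dj j) := fun p hp =>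
    ((contDiffAt_Pj hp).restrict_scalars ℝ).contDiffWithinAt
  exact (contDiffOn_const.mul h2).mul h1

/-- the integral of `z ^ k dz / y` from `b j` to `(x, y)` -/
def EWc (k : ℕ) (b : Bs) (j : Fin 6) (x y : ℂ) : ℂ := (x - b j) / y * Qj k j (b, x)

/-- the real odd primitive of `(a 0 + a 1 x) dx / y` near `b j` -/
def EW (a : Fin 2 → ℂ) (b : Bs) (j : Fin 6) (x y : ℂ) : ℝ :=
  (a 0 * EWc 0 b j x y + a 1 * EWc 1 b j x y).re

theorem EWc_neg (k : ℕ) (b : Bs) (j : Fin 6) (x y : ℂ) : EWc k b j x (-y) = -EWc k b j x y := by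
  unfold EWc; rw [div_neg]; ring

theorem EW_neg (a : Fin 2 → ℂ) (b : Bs) (j : Fin 6) (x y : ℂ) :
    EW a b j x (-y) = -EW a b j x y := by
  unfold EW; rw [EWc_neg, EWc_neg]; simp; ring

/-! ### the derivative along a branch -/

theorem section_contDiffAt_Pj {j : Fin 6} {b : Bs} {x : ℂ} (h : (b, x) ∈ Dj j) :
    DifferentiableAt ℂ (fun x => Pj j (b, x)) x :=
  DifferentiableAt.comp (g := Pj j) (f := fun x : ℂ => ((b, x) : Bs × ℂ)) x
    ((contDiffAt_Pj h).differentiableAt (by simp)) (by fun_prop)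

theorem Pj_sq {j : Fin 6} {b : Bs} {x : ℂ} (h : (b, x) ∈ Dj j) :
    Pj j (b, x) ^ 2 * ∏ i ∈ univ.erase j, (b j - b i) = ∏ i ∈ univ.erase j, (x - b i) := by
  unfold Pj
  rw [← Finset.prod_pow, ← Finset.prod_mul_distrib]
  refine Finset.prod_congr rfl fun i hi => ?_
  have hi' : i ≠ j := (Finset.mem_erase.1 hi).1
  have h1 : (x - b i) / (b j - b i) ≠ 0 :=
    Complex.slitPlane_ne_zero (quot_mem h hi')
  have h2 := ne_of_Dj h hi'
  simp only at h1 h2 ⊢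
  rw [psq_sq h1, div_mul_cancel₀ _ h2]

theorem exists_radius {j : Fin 6} {b : Bs} {t0 : ℝ} (h : ∀ i, i ≠ j → 2 * t0 < ‖b i - b j‖) :
    ∃ t1, t0 < t1 ∧ ∀ i, i ≠ j → 2 * t1 < ‖b i - b j‖ := by
  have ho : IsOpen {t : ℝ | ∀ i : {i : Fin 6 // i ≠ j}, 2 * t < ‖b i - b j‖} := by
    simp only [Set.ofPred_forall]
    exact isOpen_iInter_of_finite fun i => isOpen_lt (by fun_prop) (by fun_prop)
  obtain ⟨ε, hε, hb⟩ := Metric.isOpen_iff.1 ho t0 (fun i => h i i.2)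
  refine ⟨t0 + ε / 2, by linarith, fun i hi => hb ?_ ⟨i, hi⟩⟩
  rw [Metric.mem_ball, Real.dist_eq, add_sub_cancel_left, abs_of_pos (by linarith)]
  linarith

theorem mem_Dj_of {j : Fin 6} {b : Bs} {t1 : ℝ} (h : ∀ i, i ≠ j → 2 * t1 < ‖b i - b j‖) {x : ℂ}
    (hx : ‖x - b j‖ < t1) : (b, x) ∈ Dj j := fun i hi => by
  have := h i hi
  simp only
  linarith

/-- a holomorphic function with the integrals of `Qj` as its values -/
theorem exists_prim (k : ℕ) {j : Fin 6} {b : Bs} {t1 : ℝ}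
    (h : ∀ i, i ≠ j → 2 * t1 < ‖b i - b j‖) :
    ∃ G : ℂ → ℂ, (∀ w : ℂ, ‖w‖ ^ 2 < t1 →
      HasDerivAt G ((b j + w ^ 2) ^ k / Pj j (b, b j + w ^ 2)) w) ∧
      ∀ w : ℂ, ‖w‖ ^ 2 < t1 →
        w * ∫ r in (0 : ℝ)..1, intg k j ((b, b j + w ^ 2), r) = G w := by
  set g : ℂ → ℂ := fun w => (b j + w ^ 2) ^ k / Pj j (b, b j + w ^ 2) with hg
  have hmem : ∀ w : ℂ, ‖w‖ ^ 2 < t1 → (b, b j + w ^ 2) ∈ Dj j := fun w hw =>
    mem_Dj_of h (by rwa [add_sub_cancel_left, norm_pow])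
  have hball : ∀ w : ℂ, w ∈ Metric.ball (0 : ℂ) (Real.sqrt t1) ↔ ‖w‖ ^ 2 < t1 := by
    intro w
    rw [mem_ball_zero_iff, Real.lt_sqrt (norm_nonneg _)]
  have hd : DifferentiableOn ℂ g (Metric.ball 0 (Real.sqrt t1)) := by
    intro w hw
    have h1 := hmem w ((hball w).1 hw)
    have h2 : DifferentiableAt ℂ (fun w : ℂ => Pj j (b, b j + w ^ 2)) w :=
      DifferentiableAt.comp (g := fun x => Pj j (b, x)) (f := fun w : ℂ => b j + w ^ 2) w
        (section_contDiffAt_Pj h1) (by fun_prop)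
    exact (DifferentiableAt.div (by fun_prop) h2 (Pj_ne_zero _ _)).differentiableWithinAt
  obtain ⟨G0, hG0⟩ := hd.isExactOn_ball
  refine ⟨fun w => G0 w - G0 0, fun w hw => ?_, fun w hw => ?_⟩
  · exact (hG0 w ((hball w).2 hw)).sub_const _
  · have hseg : ∀ r ∈ Icc (0 : ℝ) 1, ‖(r : ℂ) * w‖ ^ 2 < t1 := by
      intro r hr
      refine lt_of_le_of_lt ?_ hw
      rw [norm_mul, mul_pow, Complex.norm_real, Real.norm_eq_abs, sq_abs]
      nlinarith [sq_nonneg ‖w‖, hr.1, hr.2, mul_nonneg hr.1 (sub_nonneg.2 hr.2)]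
    have h1 : ∀ r ∈ uIcc (0 : ℝ) 1,
        HasDerivAt (fun r : ℝ => G0 ((r : ℂ) * w)) (g ((r : ℂ) * w) * w) r := by
      intro r hr
      rw [Set.uIcc_of_le zero_le_one] at hr
      have h2 := hG0 ((r : ℂ) * w) ((hball _).2 (hseg r hr))
      have h3 : HasDerivAt (fun z : ℂ => z * w) w (r : ℂ) := by
        simpa using (hasDerivAt_id (r : ℂ)).mul_const w
      exact (HasDerivAt.comp (h₂ := G0) (h := fun z : ℂ => z * w) (r : ℂ) h2 h3).comp_ofReal
    have h4 : IntervalIntegrable (fun r : ℝ => g ((r : ℂ) * w) * w) volume 0 1 := by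
      refine ContinuousOn.intervalIntegrable ?_
      rw [Set.uIcc_of_le zero_le_one]
      have h5 : ContinuousOn g (Metric.ball 0 (Real.sqrt t1)) := hd.continuousOn
      refine ContinuousOn.mul ?_ continuousOn_const
      exact h5.comp (f := fun r : ℝ => (r : ℂ) * w) (by fun_prop)
        fun r hr => (hball _).2 (hseg r hr)
    have h6 := intervalIntegral.integral_eq_sub_of_hasDerivAt h1 h4
    simp only [Complex.ofReal_one, one_mul, Complex.ofReal_zero, zero_mul] at h6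
    change _ = G0 w - G0 0
    rw [← h6, ← intervalIntegral.integral_const_mul]
    refine intervalIntegral.integral_congr fun r hr => ?_
    simp only [intg, seg, hg, add_sub_cancel_left]
    have h7 : (r : ℂ) ^ 2 * w ^ 2 = ((r : ℂ) * w) ^ 2 := by ring
    rw [h7, mul_comm]

/-- **the `x`-derivative of `EWc` along a branch of `y`** -/
theorem hasDerivAt_EWc (k : ℕ) {j : Fin 6} {b : Bs} {x0 : ℂ} (h : (b, x0) ∈ Dj j)
    (hx0 : x0 ≠ b j) {Y : ℂ → ℂ} (hY : DifferentiableAt ℂ Y x0)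
    (hY2 : ∀ᶠ x in 𝓝 x0, Y x ^ 2 = ∏ i, (x - b i)) :
    HasDerivAt (fun x => EWc k b j x (Y x)) (x0 ^ k / Y x0) x0 := by
  obtain ⟨t1, ht0, ht1⟩ := exists_radius (j := j) (b := b) (t0 := ‖x0 - b j‖) h
  have ht : 0 < t1 := (norm_nonneg _).trans_lt ht0
  obtain ⟨G, hG, hG2⟩ := exists_prim k ht1
  have hc0 : ∏ i ∈ univ.erase j, (b j - b i) ≠ 0 :=
    Finset.prod_ne_zero_iff.2 fun i hi => ne_of_Dj h (Finset.mem_erase.1 hi).1
  obtain ⟨κ, hκ⟩ : ∃ κ : ℂ, κ ^ 2 = ∏ i ∈ univ.erase j, (b j - b i) :=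
    ⟨psq _, psq_sq hc0⟩
  have hκ0 : κ ≠ 0 := by rintro rfl; exact hc0 (by rw [← hκ]; simp)
  set w : ℂ → ℂ := fun x => Y x / (κ * Pj j (b, x)) with hw
  have hev : ∀ᶠ x in 𝓝 x0, (b, x) ∈ Dj j := by
    have : Continuous fun x : ℂ => ((b, x) : Bs × ℂ) := by fun_prop
    exact this.continuousAt.eventually_mem ((isOpen_Dj j).mem_nhds h)
  have hw2 : ∀ᶠ x in 𝓝 x0, w x ^ 2 = x - b j := by
    filter_upwards [hY2, hev] with x h1 h2
    have h3 := Pj_sq h2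
    have h4 : ∏ i, (x - b i) = (x - b j) * ∏ i ∈ univ.erase j, (x - b i) :=
      (Finset.mul_prod_erase univ (fun i => x - b i) (mem_univ j)).symm
    rw [hw]
    simp only [div_pow, mul_pow]
    rw [h1, h4, ← h3, hκ]
    have := Pj_ne_zero j (b, x)
    field_simp
  have hw0 : w x0 ≠ 0 := by
    intro h0
    have := hw2.self_of_nhds
    rw [h0] at this
    exact hx0 (sub_eq_zero.1 (by rw [← this]; simp))
  have hY0 : Y x0 ≠ 0 := by
    intro h0
    exact hw0 (by simp [hw, h0])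
  have hwd : DifferentiableAt ℂ w x0 :=
    hY.div ((section_contDiffAt_Pj h).const_mul κ) (mul_ne_zero hκ0 (Pj_ne_zero _ _))
  have hwd' : deriv w x0 = 1 / (2 * w x0) := by
    have h1 : HasDerivAt (fun x => w x ^ 2) (2 * w x0 * deriv w x0) x0 := by
      have h0 := HasDerivAt.fun_pow hwd.hasDerivAt 2
      simpa using h0
    have h2 : HasDerivAt (fun x => w x ^ 2) 1 x0 :=
      ((hasDerivAt_id x0).sub_const (b j)).congr_of_eventuallyEq
        (by filter_upwards [hw2] with x hx using by simpa using hx)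
    have h3 := h1.unique h2
    field_simp
    linear_combination h3
  have hwn : ‖w x0‖ ^ 2 < t1 := by
    rw [← norm_pow, hw2.self_of_nhds]; exact ht0
  have hcomp : HasDerivAt (fun x => 2 / κ * G (w x))
      (2 / κ * (((b j + w x0 ^ 2) ^ k / Pj j (b, b j + w x0 ^ 2)) * (1 / (2 * w x0)))) x0 := by
    have h1 : HasDerivAt w (1 / (2 * w x0)) x0 := hwd' ▸ hwd.hasDerivAt
    exact (HasDerivAt.comp (h₂ := G) x0 (hG _ hwn) h1).const_mul _
  have hx : b j + w x0 ^ 2 = x0 := by rw [hw2.self_of_nhds]; ring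
  rw [hx] at hcomp
  have hval : 2 / κ * (x0 ^ k / Pj j (b, x0) * (1 / (2 * w x0))) = x0 ^ k / Y x0 := by
    have h1 := Pj_ne_zero j (b, x0)
    have h2 : Y x0 = w x0 * (κ * Pj j (b, x0)) := by
      rw [hw]; field_simp
    rw [h2]
    field_simp
  rw [hval] at hcomp
  refine hcomp.congr_of_eventuallyEq ?_
  have hne : ∀ᶠ x in 𝓝 x0, x ≠ b j := isOpen_ne.eventually_mem hx0
  have hnb : ∀ᶠ x in 𝓝 x0, ‖x - b j‖ < t1 := by
    have : Continuous fun x : ℂ => ‖x - b j‖ := by fun_prop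
    exact this.continuousAt.eventually_lt continuousAt_const ht0
  filter_upwards [hw2, hev, hne, hnb] with x h1 h2 h3 h4
  have hwx : w x ≠ 0 := by
    intro h0
    rw [h0] at h1
    exact h3 (sub_eq_zero.1 (by rw [← h1]; simp))
  have hP := Pj_ne_zero j (b, x)
  have hYx : Y x = w x * (κ * Pj j (b, x)) := by rw [hw]; field_simp
  have h5 := hG2 (w x) (by rw [← norm_pow, h1]; exact h4)
  have hxx : b j + w x ^ 2 = x := by rw [h1]; ring
  rw [hxx] at h5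
  simp only [EWc, Qj]
  rw [← h5, hYx, ← h1]
  field_simp

end

end Vale.Agent.P273.H214
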