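import Vale.Agent.P273.H214.WCut

/-!
# P273, row BULK-F4: the cut-off functions near the Weierstrass points, bounds of `EWc`
-/

namespace Vale.Agent.P273.H214

open scoped ContDiff Topology
open Set Filter MeasureTheory Finset

noncomputable section

/-- the squared isolation scale of the root `b j` -/
def hh (b : Bs) (j : Fin 6) : ℝ := (∑ i ∈ univ.erase j, (‖b i - b j‖ ^ 2)⁻¹)⁻¹

theorem sum_pos_of_inj {b : Bs} (hb : Function.Injective b) (j : Fin 6) :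
    0 < ∑ i ∈ univ.erase j, (‖b i - b j‖ ^ 2)⁻¹ := by
  refine Finset.sum_pos (fun i hi => ?_) ?_
  · have h1 : b i - b j ≠ 0 := sub_ne_zero.2 (hb.ne (Finset.mem_erase.1 hi).1)
    positivity
  · exact ⟨j + 1, Finset.mem_erase.2 ⟨by fin_cases j <;> decide, mem_univ _⟩⟩

theorem hh_pos {b : Bs} (hb : Function.Injective b) (j : Fin 6) : 0 < hh b j :=
  inv_pos.2 (sum_pos_of_inj hb j)

theorem hh_le {b : Bs} (hb : Function.Injective b) {i j : Fin 6} (hi : i ≠ j) :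
    hh b j ≤ ‖b i - b j‖ ^ 2 := by
  have h1 : b i - b j ≠ 0 := sub_ne_zero.2 (hb.ne hi)
  have h2 : (‖b i - b j‖ ^ 2)⁻¹ ≤ ∑ i ∈ univ.erase j, (‖b i - b j‖ ^ 2)⁻¹ :=
    Finset.single_le_sum (f := fun i => (‖b i - b j‖ ^ 2)⁻¹) (fun _ _ => by positivity)
      (Finset.mem_erase.2 ⟨hi, mem_univ _⟩)
  have h3 : (0 : ℝ) < (‖b i - b j‖ ^ 2)⁻¹ := by positivity
  calc hh b j ≤ ((‖b i - b j‖ ^ 2)⁻¹)⁻¹ := inv_anti₀ h3 h2
    _ = ‖b i - b j‖ ^ 2 := inv_inv _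

theorem mem_Dj_of_hh {b : Bs} (hb : Function.Injective b) {j : Fin 6} {x : ℂ}
    (h : 4 * ‖x - b j‖ ^ 2 < hh b j) : (b, x) ∈ Dj j := fun i hi => by
  have h1 := hh_le hb hi
  have h2 : (2 * ‖x - b j‖) ^ 2 < ‖b i - b j‖ ^ 2 := by nlinarith
  exact lt_of_pow_lt_pow_left₀ 2 (norm_nonneg _) h2

/-- the set of distinct roots -/
def Cf : Set Bs := {b | Function.Injective b}

theorem isOpen_Cf : IsOpen Cf := by
  have : Cf = ⋂ q : {q : Fin 6 × Fin 6 // q.1 ≠ q.2}, {b : Bs | b q.1.1 ≠ b q.1.2} := by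
    ext b
    simp only [Cf, Set.mem_iInter, Subtype.forall, Prod.forall]
    constructor
    · intro h i j hij h1
      exact hij (h h1)
    · intro h i j h1
      by_contra hij
      exact h i j hij h1
  rw [this]
  exact isOpen_iInter_of_finite fun q => isOpen_ne_fun (by fun_prop) (by fun_prop)

theorem contDiff_normSq_sub (i j : Fin 6) : ContDiff ℝ ∞ (fun b : Bs => ‖b i - b j‖ ^ 2) := by
  have h : ContDiff ℝ ∞ (fun b : Bs => b i - b j) := by fun_prop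
  exact h.norm_sq ℝ

theorem contDiffAt_hh {b : Bs} (hb : b ∈ Cf) (j : Fin 6) :
    ContDiffAt ℝ ∞ (fun b : Bs => hh b j) b := by
  unfold hh
  refine ContDiffAt.inv ?_ (sum_pos_of_inj hb j).ne'
  refine ContDiffAt.sum fun i hi => ?_
  refine ContDiffAt.inv (contDiff_normSq_sub i j).contDiffAt ?_
  have h1 : b i - b j ≠ 0 := sub_ne_zero.2 (Function.Injective.ne hb (Finset.mem_erase.1 hi).1)
  positivity

/-- the cut-off function at the root `b j` -/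
def chiW (b : Bs) (j : Fin 6) (x : ℂ) : ℝ :=
  Real.smoothTransition (2 - 64 * ‖x - b j‖ ^ 2 / hh b j)

theorem chiW_eq_one {b : Bs} (hb : b ∈ Cf) {j : Fin 6} {x : ℂ}
    (h : 64 * ‖x - b j‖ ^ 2 ≤ hh b j) : chiW b j x = 1 := by
  refine Real.smoothTransition.one_of_one_le ?_
  have : 64 * ‖x - b j‖ ^ 2 / hh b j ≤ 1 := (div_le_one (hh_pos hb j)).2 h
  linarith

theorem chiW_eq_zero {b : Bs} (hb : b ∈ Cf) {j : Fin 6} {x : ℂ}
    (h : hh b j ≤ 32 * ‖x - b j‖ ^ 2) : chiW b j x = 0 := by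
  refine Real.smoothTransition.zero_of_nonpos ?_
  have : 2 ≤ 64 * ‖x - b j‖ ^ 2 / hh b j := (le_div_iff₀ (hh_pos hb j)).2 (by linarith)
  linarith

theorem chiW_nonneg (b : Bs) (j : Fin 6) (x : ℂ) : 0 ≤ chiW b j x :=
  Real.smoothTransition.nonneg _

theorem chiW_le_one (b : Bs) (j : Fin 6) (x : ℂ) : chiW b j x ≤ 1 :=
  Real.smoothTransition.le_one _

theorem contDiffAt_chiW {b : Bs} (hb : b ∈ Cf) (j : Fin 6) (x : ℂ) :
    ContDiffAt ℝ ∞ (fun p : Bs × ℂ => chiW p.1 j p.2) (b, x) := by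
  unfold chiW
  refine (Real.smoothTransition.contDiff (n := (⊤ : ℕ∞))).contDiffAt.comp (b, x) ?_
  have h1 : ContDiffAt ℝ ∞ (fun p : Bs × ℂ => hh p.1 j) (b, x) :=
    ContDiffAt.comp (g := fun b : Bs => hh b j) (f := Prod.fst) (b, x) (contDiffAt_hh hb j)
      contDiffAt_fst
  have h2 : ContDiff ℝ ∞ (fun p : Bs × ℂ => ‖p.2 - p.1 j‖ ^ 2) := by
    have h : ContDiff ℝ ∞ (fun p : Bs × ℂ => p.2 - p.1 j) := by fun_prop
    exact h.norm_sq ℝ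
  exact contDiffAt_const.sub ((contDiffAt_const.mul h2.contDiffAt).div h1 (hh_pos hb j).ne')

/-- different cut-off functions have disjoint supports -/
theorem chiW_disjoint {b : Bs} (hb : b ∈ Cf) {i j : Fin 6} (hij : i ≠ j) {x : ℂ}
    (h : chiW b j x ≠ 0) : chiW b i x = 0 := by
  refine chiW_eq_zero hb ?_
  have h1 : 32 * ‖x - b j‖ ^ 2 < hh b j := not_le.1 fun h1 => h (chiW_eq_zero hb h1)
  have h2 : hh b j ≤ ‖b i - b j‖ ^ 2 := hh_le hb hij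
  have h3 : hh b i ≤ ‖b j - b i‖ ^ 2 := hh_le hb hij.symm
  have h4 : ‖b i - b j‖ ≤ ‖x - b j‖ + ‖x - b i‖ := by
    have := norm_sub_le (x - b j) (x - b i)
    simpa using this
  have h5 : ‖b j - b i‖ = ‖b i - b j‖ := norm_sub_rev _ _
  rw [h5] at h3
  have h6 := norm_nonneg (x - b j)
  have h7 := norm_nonneg (x - b i)
  have h8 : 5 * ‖x - b j‖ ≤ ‖b i - b j‖ := by
    by_contra hc
    push Not at hc
    nlinarith [norm_nonneg (b i - b j)]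
  have h9 : 4 / 5 * ‖b i - b j‖ ≤ ‖x - b i‖ := by linarith
  nlinarith [norm_nonneg (b i - b j)]

theorem chiW_perm (b : Bs) (j : Fin 6) (x : ℂ) (w : Equiv.Perm (Fin 6)) :
    chiW (b ∘ w) j x = chiW b (w j) x := by
  unfold chiW hh
  have : ∑ i ∈ univ.erase j, (‖(b ∘ w) i - (b ∘ w) j‖ ^ 2)⁻¹ =
      ∑ i ∈ univ.erase (w j), (‖b i - b (w j)‖ ^ 2)⁻¹ := by
    refine Finset.sum_equiv w (fun i => ?_) fun i _ => rfl
    simp
  rw [this]
  rfl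

/-! ### bounds -/

theorem norm_Pj_sq_le {j : Fin 6} {p : Bs × ℂ} (hp : p ∈ Dj j) : ‖Pj j p‖ ^ 2 ≤ (3 / 2) ^ 5 := by
  have h1 : ∀ i ∈ univ.erase j, ‖psq ((p.2 - p.1 i) / (p.1 j - p.1 i))‖ ^ 2 ≤ 3 / 2 := by
    intro i hi
    have hi' : i ≠ j := (Finset.mem_erase.1 hi).1
    rw [norm_psq_sq (Complex.slitPlane_ne_zero (quot_mem hp hi')), quot_eq hp hi']
    calc _ ≤ ‖(1 : ℂ)‖ + ‖(p.2 - p.1 j) / (p.1 j - p.1 i)‖ := norm_add_le _ _
      _ ≤ 1 + 1 / 2 := by rw [norm_one]; linarith [norm_quot hp hi']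
      _ = 3 / 2 := by norm_num
  unfold Pj
  rw [norm_prod, ← Finset.prod_pow]
  calc _ ≤ ∏ _i ∈ univ.erase j, (3 / 2 : ℝ) :=
        Finset.prod_le_prod (fun i _ => by positivity) h1
    _ = (3 / 2) ^ 5 := by
        rw [Finset.prod_const, Finset.card_erase_of_mem (mem_univ j)]; simp

theorem le_norm_Pj_sq {j : Fin 6} {p : Bs × ℂ} (hp : p ∈ Dj j) : (1 / 2) ^ 5 ≤ ‖Pj j p‖ ^ 2 := by
  have h1 : ∀ i ∈ univ.erase j, 1 / 2 ≤ ‖psq ((p.2 - p.1 i) / (p.1 j - p.1 i))‖ ^ 2 := by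
    intro i hi
    have hi' : i ≠ j := (Finset.mem_erase.1 hi).1
    rw [norm_psq_sq (Complex.slitPlane_ne_zero (quot_mem hp hi')), quot_eq hp hi']
    have h2 := norm_sub_norm_le (1 : ℂ) (-((p.2 - p.1 j) / (p.1 j - p.1 i)))
    rw [norm_neg, sub_neg_eq_add, norm_one] at h2
    linarith [norm_quot hp hi']
  unfold Pj
  rw [norm_prod, ← Finset.prod_pow]
  calc (1 / 2 : ℝ) ^ 5 = ∏ _i ∈ univ.erase j, (1 / 2 : ℝ) := by
        rw [Finset.prod_const, Finset.card_erase_of_mem (mem_univ j)]; simp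
    _ ≤ _ := Finset.prod_le_prod (fun i _ => by positivity) h1

theorem norm_intg_le (k : ℕ) {j : Fin 6} {p : Bs × ℂ} (hp : p ∈ Dj j) {r : ℝ}
    (hr : r ∈ Icc (0 : ℝ) 1) :
    ‖Pj j p‖ * ‖intg k j (p, r)‖ ≤ 16 * (max ‖p.1 j‖ ‖p.2‖) ^ k := by
  have h1 := norm_Pj_sq_le hp
  have h2 := le_norm_Pj_sq (seg_mem hp hr)
  have h3 : ‖Pj j p‖ ≤ 16 * ‖Pj j (p.1, seg j p r)‖ := by
    refine (sq_le_sq₀ (norm_nonneg _) (by positivity)).1 ?_
    rw [mul_pow]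
    nlinarith
  have h4 : ‖seg j p r‖ ≤ max ‖p.1 j‖ ‖p.2‖ := by
    have h5 : seg j p r = ((1 - r ^ 2 : ℝ) : ℂ) * p.1 j + ((r ^ 2 : ℝ) : ℂ) * p.2 := by
      unfold seg; push_cast; ring
    have h6 : (0 : ℝ) ≤ r ^ 2 := sq_nonneg r
    have h7 : r ^ 2 ≤ 1 := pow_le_one₀ hr.1 hr.2
    rw [h5]
    calc _ ≤ ‖((1 - r ^ 2 : ℝ) : ℂ) * p.1 j‖ + ‖((r ^ 2 : ℝ) : ℂ) * p.2‖ := norm_add_le _ _
      _ = (1 - r ^ 2) * ‖p.1 j‖ + r ^ 2 * ‖p.2‖ := by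
          rw [norm_mul, norm_mul, Complex.norm_real, Complex.norm_real, Real.norm_eq_abs,
            Real.norm_eq_abs, abs_of_nonneg h6, abs_of_nonneg (by linarith)]
      _ ≤ (1 - r ^ 2) * max ‖p.1 j‖ ‖p.2‖ + r ^ 2 * max ‖p.1 j‖ ‖p.2‖ :=
          add_le_add (mul_le_mul_of_nonneg_left (le_max_left _ _) (by linarith))
            (mul_le_mul_of_nonneg_left (le_max_right _ _) h6)
      _ = _ := by ring
  have h8 : ‖Pj j (p.1, seg j p r)‖ ≠ 0 := norm_ne_zero_iff.2 (Pj_ne_zero _ _)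
  simp only [intg, norm_div, norm_pow]
  calc ‖Pj j p‖ * (‖seg j p r‖ ^ k / ‖Pj j (p.1, seg j p r)‖)
      ≤ (16 * ‖Pj j (p.1, seg j p r)‖) * (‖seg j p r‖ ^ k / ‖Pj j (p.1, seg j p r)‖) := by
        gcongr
    _ = 16 * ‖seg j p r‖ ^ k := by field_simp
    _ ≤ _ := by gcongr

theorem norm_Qj_le (k : ℕ) {j : Fin 6} {p : Bs × ℂ} (hp : p ∈ Dj j) :
    ‖Qj k j p‖ ≤ 32 * (max ‖p.1 j‖ ‖p.2‖) ^ k := by
  have h1 : Qj k j p = 2 * ∫ r in (0 : ℝ)..1, Pj j p * intg k j (p, r) := by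
    rw [Qj, intervalIntegral.integral_const_mul]; ring
  have h2 : ‖∫ r in (0 : ℝ)..1, Pj j p * intg k j (p, r)‖ ≤
      (16 * (max ‖p.1 j‖ ‖p.2‖) ^ k) * |1 - 0| := by
    refine intervalIntegral.norm_integral_le_of_norm_le_const fun r hr => ?_
    rw [Set.uIoc_of_le zero_le_one] at hr
    rw [norm_mul]
    exact norm_intg_le k hp ⟨hr.1.le, hr.2⟩
  rw [h1, norm_mul]
  simp only [sub_zero, abs_one, mul_one] at h2
  have : ‖(2 : ℂ)‖ = 2 := by simp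
  rw [this]
  linarith

theorem norm_EWc_le (k : ℕ) {b : Bs} {j : Fin 6} {x : ℂ} (h : (b, x) ∈ Dj j) (y : ℂ) :
    ‖EWc k b j x y‖ ≤ ‖x - b j‖ / ‖y‖ * (32 * (max ‖b j‖ ‖x‖) ^ k) := by
  rw [EWc, norm_mul, norm_div]
  gcongr
  exact norm_Qj_le k h

theorem norm_sub_ge {b : Bs} {j : Fin 6} {x : ℂ} (h : (b, x) ∈ Dj j) {i : Fin 6} (hi : i ≠ j) :
    ‖b i - b j‖ / 2 ≤ ‖x - b i‖ := by
  have h1 := h i hi
  simp only at h1
  have h2 : ‖b i - b j‖ ≤ ‖x - b j‖ + ‖x - b i‖ := by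
    have := norm_sub_le (x - b j) (x - b i)
    simpa using this
  linarith

/-- along a branch of `y`, `|x - b j| / |y|` tends to `0` -/
theorem sq_div_le {b : Bs} {j : Fin 6} {x : ℂ} (h : (b, x) ∈ Dj j) {y : ℂ}
    (hy : y ^ 2 = ∏ i, (x - b i)) :
    (‖x - b j‖ / ‖y‖) ^ 2 ≤ ‖x - b j‖ / ∏ i ∈ univ.erase j, (‖b i - b j‖ / 2) := by
  have h0 : 0 < ∏ i ∈ univ.erase j, (‖b i - b j‖ / 2) := by
    refine Finset.prod_pos fun i hi => ?_
    have := ne_of_Dj h (Finset.mem_erase.1 hi).1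
    have h1 : b i - b j ≠ 0 := by
      intro h2; exact this (by simp only; rw [← neg_sub, h2, neg_zero])
    positivity
  have h1 : ‖y‖ ^ 2 = ‖x - b j‖ * ∏ i ∈ univ.erase j, ‖x - b i‖ := by
    rw [← norm_pow, hy, norm_prod, Finset.mul_prod_erase univ (fun i => ‖x - b i‖) (mem_univ j)]
  have h2 : ∏ i ∈ univ.erase j, (‖b i - b j‖ / 2) ≤ ∏ i ∈ univ.erase j, ‖x - b i‖ :=
    Finset.prod_le_prod (fun i _ => by positivity)
      fun i hi => norm_sub_ge h (Finset.mem_erase.1 hi).1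
  rw [div_pow, h1]
  rcases eq_or_ne (‖x - b j‖) 0 with h3 | h3
  · rw [h3]; simp
  · have h4 : 0 < ‖x - b j‖ := lt_of_le_of_ne (norm_nonneg _) (Ne.symm h3)
    rw [sq, mul_div_mul_left _ _ h3]
    gcongr

/-- `EWc → 0` at the root: explicit form -/
theorem norm_EWc_sq_le (k : ℕ) {b : Bs} {j : Fin 6} {x : ℂ} (h : (b, x) ∈ Dj j) {y : ℂ}
    (hy : y ^ 2 = ∏ i, (x - b i)) :
    ‖EWc k b j x y‖ ^ 2 ≤ ‖x - b j‖ / (∏ i ∈ univ.erase j, (‖b i - b j‖ / 2)) *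
      (32 * (max ‖b j‖ ‖x‖) ^ k) ^ 2 := by
  calc _ ≤ (‖x - b j‖ / ‖y‖ * (32 * (max ‖b j‖ ‖x‖) ^ k)) ^ 2 := by
        gcongr
        exact norm_EWc_le k h y
    _ = (‖x - b j‖ / ‖y‖) ^ 2 * (32 * (max ‖b j‖ ‖x‖) ^ k) ^ 2 := by ring
    _ ≤ _ := by
        gcongr
        exact sq_div_le h hy

end

end Vale.Agent.P273.H214
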